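import Vale.Agent.P004G.H394.Moll3
import Vale.Agent.P004.H394.Moll4

/-!
# P004G, module W, part 4: the main term for sums over squarefree `m`, and `StMoll`
-/

open Real MeasureTheory Set Filter Topology

namespace P004G

namespace Moll

open P004.H128 (sum_wp_prod)
open P004 (StRepA StRepB StRepC)

export P004.Moll (err_bdd exp_main_ge rho_one expand_sq combine)

variable [Crv]

/-- from the random model to the limit -/
lemma model_limit (hLim : StLim) {S : Finset ℕ} {m : ℕ → ℝ} {Y : ℕ} {h : ℝ → ℝ} {U b c Z : ℝ}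
    (hU0 : 0 < U) (hfm : Measurable (cfY Y h)) (hfb : ∀ u, 0 < u → |cfY Y h u| ≤ b)
    (hf0 : ∀ u, 0 < u → u < U → cfY Y h u = 0) (hS0 : ∀ a ∈ S, a ≠ 0) {N₀ : ℕ}
    (hN : ∀ N : ℕ, N₀ ≤ N → EN N (fun X => (Dp S m X * FX Y h X - c) ^ 2) ≤ Z) :
    Q2 S m (cfY Y h) - 2 * c * Q1 S m (cfY Y h) + c ^ 2 ≤ Z := by
  have hlim := hLim S m U b (cfY Y h) hU0 hfm hfb hf0 hS0
  have ht : Tendsto (fun N : ℕ => EN N (fun X => (∑ a ∈ S, m a * X a) ^ 2 *
      (∑' n : ℕ, bet (cfY Y h) n * X n) ^ 2) -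
      2 * c * EN N (fun X => (∑ a ∈ S, m a * X a) * ∑' n : ℕ, bet (cfY Y h) n * X n) +
      c ^ 2) atTop (𝓝 (Q2 S m (cfY Y h) - 2 * c * Q1 S m (cfY Y h) + c ^ 2)) :=
    (hlim.1.sub (hlim.2.const_mul _)).add_const _
  refine le_of_tendsto ht ?_
  filter_upwards [eventually_ge_atTop N₀] with N hN'
  refine le_trans (le_of_eq ?_) (hN N hN')
  have hone : EN N (fun _ => (1 : ℝ)) = 1 := by
    unfold EN
    simp only [mul_one]
    exact sum_wp_prod N
  have e1 : EN N (fun X => (Dp S m X * FX Y h X - c) ^ 2) =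
      EN N (fun X => (∑ a ∈ S, m a * X a) ^ 2 * (∑' n : ℕ, bet (cfY Y h) n * X n) ^ 2) -
      2 * c * EN N (fun X => (∑ a ∈ S, m a * X a) * ∑' n : ℕ, bet (cfY Y h) n * X n) +
      c ^ 2 * EN N (fun _ => (1 : ℝ)) := by
    unfold EN
    rw [Finset.mul_sum, Finset.mul_sum, ← Finset.sum_sub_distrib, ← Finset.sum_add_distrib]
    refine Finset.sum_congr rfl fun ω _ => ?_
    unfold Dp FX
    ring
  rw [e1, hone, mul_one]

lemma part4 (hCo : StCoef) (hD : StDiv) (h0 : StTw0) (h1 : StTw1) (h2 : StTw2) (hPN : StPassN)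
    (hLim : StLim) (hLN : StLN) (hR2 : StR2) (hR3 : StR3) (hP : StPoly) (hRA : StRepA)
    (hRB : StRepB) :
    ∃ C c : ℝ, 1 ≤ C ∧ 0 < c ∧ ∀ (Y : ℕ) (K : ℝ), 3 ≤ Y → 1 ≤ K →
    K ≤ Real.log Y ^ (1 / 8 : ℝ) →
    ∑ m ∈ sqZ Y, (Mj Y K 0 m * Fw Y (fun x => psi Y x * Real.exp (K / Real.log Y * x)) m -
      cmain Y K) ^ 2 ≤ C * Y * Real.exp (2 * K - c * √K) := by
  obtain ⟨C₂, hC₂, A₂, hT2⟩ := tr2 hCo hD h2
  obtain ⟨C₁, hC₁, A₁, hT1⟩ := tr1 hCo hD h1
  obtain ⟨C₀, hC₀, hT0⟩ := h0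
  obtain ⟨CM', cM, hCM, hcM, hcM2, hMain⟩ := main_model hCo hPN hLN hR2 hR3 hRA hRB
  obtain ⟨E₂, hE₂, hEr2⟩ := err_bdd A₂
  obtain ⟨E₁, hE₁, hEr1⟩ := err_bdd A₁
  have hc0 := P004.H1.c0_pos
  refine ⟨max 1 (P004.H1.c0⁻¹ * (5040 * CM' + C₂ * E₂ + 8 * C₁ * E₁ + 16 * C₀)), cM,
    le_max_left _ _, hcM, ?_⟩
  intro Y K hY hK hK8
  have hL := logY_ge_one hY
  have hL0 : 0 < Real.log Y := by linarith
  have hK0 : 0 < K := by linarith
  have hKL : K ≤ Real.log Y := by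
    refine hK8.trans ?_
    calc Real.log Y ^ (1 / 8 : ℝ) ≤ Real.log Y ^ (1 : ℝ) :=
          Real.rpow_le_rpow_of_exponent_le hL (by norm_num)
      _ = Real.log Y := Real.rpow_one _
  have hY1 : (1 : ℝ) ≤ Y := by exact_mod_cast (by omega : 1 ≤ Y)
  have hY0 : (0 : ℝ) < Y := by linarith
  have hw : 0 < wj Y 0 := by unfold wj; positivity
  have hwL : wj Y 0 * 20 = Real.log Y := by
    unfold wj
    rw [pow_zero, mul_one]
    field_simp
  obtain ⟨S, m, hM, hS⟩ := hP (Real.log Y) K 0 ⌈Real.log Y⌉₊ hL hK0.le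
  have hS0 : ∀ a ∈ S, a ≠ 0 := fun a ha => (hS a ha).2.1.1
  set Λ := Real.exp (Real.log Y / 1600) with hΛdef
  have hΛ : ∀ a ∈ S, (a : ℝ) ≤ Λ := by
    intro a ha
    refine (hS a ha).2.2.1.trans (le_of_eq ?_)
    rw [hΛdef]
    simp
  have hΛ1 : 1 ≤ Λ := Real.one_le_exp (by positivity)
  set U := Real.exp (wj Y 0) / Y with hUdef
  have hU0 : 0 < U := by positivity
  have hUexp : U = Real.exp (wj Y 0 - Real.log Y) := by
    rw [hUdef, Real.exp_sub, Real.exp_log hY0]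
  have hU1 : Real.exp (-Real.log Y) ≤ U := by
    rw [hUexp]
    exact Real.exp_le_exp.2 (by linarith)
  have hU2 : U ≤ 1 := by
    rw [hUexp]
    exact Real.exp_le_one_iff.2 (by linarith)
  have hlogΛ : 2 * Real.log Λ ≤ Real.log Y := by
    rw [hΛdef, Real.log_exp]
    linarith
  -- the weight
  set h : ℝ → ℝ := fun x => psi Y x * Real.exp (K / Real.log Y * x) with hh
  set b := Real.exp (3 * K) with hbdef
  have hb0 : 0 < b := Real.exp_pos _
  have hpsi : ∀ x, |psi Y x| ≤ 1 := by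
    intro x
    unfold psi
    rw [abs_mul, abs_of_nonneg (P004.Wf.eta_nonneg _), abs_of_nonneg (by
      linarith [P004.Wf.eta_le_one (x / (3 / 2 * Real.log Y))])]
    exact mul_le_one₀ (P004.Wf.eta_le_one _) (by linarith [P004.Wf.eta_le_one (x / (3 / 2 * Real.log Y))])
      (by linarith [P004.Wf.eta_nonneg (x / (3 / 2 * Real.log Y))])
  have hhb : ∀ x, |h x| ≤ b := by
    intro x
    simp only [hh]
    rw [abs_mul, abs_of_pos (Real.exp_pos _)]
    rcases le_or_gt x (3 * Real.log Y) with hx | hx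
    · calc |psi Y x| * Real.exp (K / Real.log Y * x) ≤ 1 * Real.exp (3 * K) := by
            refine mul_le_mul (hpsi x) (Real.exp_le_exp.2 ?_) (Real.exp_pos _).le zero_le_one
            calc K / Real.log Y * x ≤ K / Real.log Y * (3 * Real.log Y) := by gcongr
              _ = 3 * K := by field_simp
        _ = b := one_mul _
    · rw [P004.Wf.psi_zero hY x (Or.inr hx), abs_zero, zero_mul]
      exact hb0.le
  have hhm : Measurable h := by
    have h3 : Measurable (psi Y) := (P004.Wf.psi_smooth Y 0).continuous.measurable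
    simp only [hh]
    fun_prop
  have hfm : Measurable (cfY Y h) := cfY_meas hhm Y
  have hf0 : ∀ u, 0 < u → u < U → cfY Y h u = 0 := by
    intro u hu0 hu
    have h4 : Real.log (u * Y) < wj Y 0 := by
      rw [Real.log_lt_iff_lt_exp (by positivity)]
      rw [hUdef, lt_div_iff₀ hY0] at hu
      exact hu
    simp only [cfY, hh]
    rw [P004.Wf.psi_zero hY _ (Or.inl h4), zero_mul]
  have hfb : ∀ u, 0 < u → |cfY Y h u| ≤ b := fun u _ => hhb _
  obtain ⟨M, hM0, hMb⟩ := Fn_bdd hCo hb0 hU0 hfm hfb hf0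
  set cm := cmain Y K with hcm
  have hcm0 : 0 ≤ cm := cmain_nonneg hY hK0.le
  have hcm1 : cm ≤ 4 * Real.exp K := cmain_le hY hK0 hKL
  set P := ∑ a ∈ S, |m a| with hPdef
  have hP0 : 0 ≤ P := Finset.sum_nonneg fun _ _ => abs_nonneg _
  have hDb : ∀ k : ℤ, |Dp S m (fun n => chi k n)| ≤ P := fun k => Dp_abs_le S m k
  have hGb : ∀ k : ℤ, |Dp S m (fun n => chi k n) * Fn (cfY Y h) k - cm| ≤ P * M + cm := by
    intro k
    calc |Dp S m (fun n => chi k n) * Fn (cfY Y h) k - cm|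
        ≤ |Dp S m (fun n => chi k n) * Fn (cfY Y h) k| + |cm| := abs_sub _ _
      _ ≤ P * M + cm := by
          rw [abs_mul, abs_of_nonneg hcm0]
          exact add_le_add (mul_le_mul (hDb k) (hMb k) (abs_nonneg _) hP0) le_rfl
  have h3 := sqZ_le Y (by omega) hGb
  have e1 : ∑ k ∈ sqZ Y, (Mj Y K 0 k * Fw Y h k - cm) ^ 2 =
      ∑ k ∈ sqZ Y, (Dp S m (fun n => chi k n) * Fn (cfY Y h) k - cm) ^ 2 := by
    refine Finset.sum_congr rfl fun k _ => ?_
    unfold Mj Fw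
    rw [mul_zero, hM _ (chi_CM k)]
    rfl
  rw [e1]
  refine h3.trans ?_
  -- the three moments
  have m2 := (abs_le.1 (hT2 (Real.log Y) Y U b Λ S m (cfY Y h) hL hY1 le_rfl hU1 hU2 hb0 hfm hfb
    hf0 (fun a ha => (hS a ha).1) (fun a ha => (hS a ha).2.1) hΛ hlogΛ)).2
  have m1 := (abs_le.1 (hT1 (Real.log Y) Y U b Λ S m (cfY Y h) hL hY1 hU1 hU2 hb0 hfm hfb
    hf0 (fun a ha => (hS a ha).1) (fun a ha => (hS a ha).2.1) hΛ)).1
  have m0 : ∑' k : ℤ, P004.H1.ah Y k ≤ 5040 * Y + C₀ := by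
    have h4 := hT0 Y 1 hY1 H3.good_one
    have e3 : Eh Y 1 = ∑' k : ℤ, P004.H1.ah Y k - 5040 * Y := by
      unfold Eh
      rw [rho_one, mul_one]
      congr 1
      refine tsum_congr fun k => ?_
      rw [chi_one, mul_one]
    have e4 : √((1 : ℕ) : ℝ) * dv 1 = 1 := by
      simp [dv]
    rw [e3, e4, mul_one] at h4
    linarith [(abs_le.1 h4).2]
  -- the error terms
  have hΛ4 : Λ ^ 4 / U ≤ Y * Real.exp (-(Real.log Y / 25)) := by
    rw [hΛdef, ← Real.exp_nat_mul, hUexp, ← Real.exp_sub]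
    have e5 : (Y : ℝ) * Real.exp (-(Real.log Y / 25)) =
        Real.exp (Real.log Y + -(Real.log Y / 25)) := by
      rw [Real.exp_add, Real.exp_log hY0]
    rw [e5]
    refine Real.exp_le_exp.2 ?_
    push_cast
    linarith
  have hb2 : b ^ 2 = Real.exp (6 * K) := by
    rw [hbdef, ← Real.exp_nat_mul]
    congr 1
    push_cast
    ring
  have hge := exp_main_ge (c := cM) hK hcM2
  set T := Real.exp (2 * K - cM * √K) with hTdef
  have err2 : C₂ * Real.log Y ^ A₂ * b ^ 2 * Λ ^ 4 / U ≤ C₂ * E₂ * Y * T := by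
    have h6 := hEr2 (Real.log Y) K hL hK0.le hK8
    calc C₂ * Real.log Y ^ A₂ * b ^ 2 * Λ ^ 4 / U
        = C₂ * Real.log Y ^ A₂ * b ^ 2 * (Λ ^ 4 / U) := by ring
      _ ≤ C₂ * Real.log Y ^ A₂ * b ^ 2 * (Y * Real.exp (-(Real.log Y / 25))) := by gcongr
      _ = C₂ * (Real.log Y ^ A₂ * Real.exp (6 * K) * Real.exp (-(Real.log Y / 25))) * Y * 1 := by
          rw [hb2]
          ring
      _ ≤ C₂ * E₂ * Y * T := by gcongr
  have err1 : 2 * cm * (C₁ * Real.log Y ^ A₁ * b * Λ ^ 2 / U) ≤ 8 * C₁ * E₁ * Y * T := by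
    have h6 := hEr1 (Real.log Y) K hL hK0.le hK8
    have h7 : Λ ^ 2 / U ≤ Y * Real.exp (-(Real.log Y / 25)) := by
      refine le_trans ?_ hΛ4
      refine div_le_div_of_nonneg_right ?_ hU0.le
      exact pow_le_pow_right₀ hΛ1 (by norm_num)
    have h8 : Real.exp K * b ≤ Real.exp (6 * K) := by
      rw [hbdef, ← Real.exp_add]
      exact Real.exp_le_exp.2 (by linarith)
    calc 2 * cm * (C₁ * Real.log Y ^ A₁ * b * Λ ^ 2 / U)
        = 2 * cm * (C₁ * Real.log Y ^ A₁ * b) * (Λ ^ 2 / U) := by ring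
      _ ≤ 2 * (4 * Real.exp K) * (C₁ * Real.log Y ^ A₁ * b) *
            (Y * Real.exp (-(Real.log Y / 25))) := by gcongr
      _ = 8 * C₁ * (Real.log Y ^ A₁ * (Real.exp K * b) * Real.exp (-(Real.log Y / 25))) * Y * 1 := by
          ring
      _ ≤ 8 * C₁ * (Real.log Y ^ A₁ * Real.exp (6 * K) * Real.exp (-(Real.log Y / 25))) * Y * 1 := by
          gcongr
      _ ≤ 8 * C₁ * E₁ * Y * T := by gcongr
  have err0 : cm ^ 2 * C₀ ≤ 16 * C₀ * Y * T := by
    have h7 : cm ^ 2 ≤ 16 * Real.exp (2 * K) := by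
      calc cm ^ 2 ≤ (4 * Real.exp K) ^ 2 := pow_le_pow_left₀ hcm0 hcm1 2
        _ = 16 * Real.exp (2 * K) := by
            rw [mul_pow, ← Real.exp_nat_mul]
            norm_num
    have h8 : Real.exp (2 * K) ≤ Y * T := by
      have e6 : (Y : ℝ) * T = Real.exp (Real.log Y + (2 * K - cM * √K)) := by
        rw [Real.exp_add, Real.exp_log hY0]
      rw [e6]
      refine Real.exp_le_exp.2 ?_
      have h9 : √K ≤ K := by
        rw [Real.sqrt_le_left hK0.le]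
        nlinarith
      have h10 : cM * √K ≤ 1 / 2 * √K := mul_le_mul_of_nonneg_right hcM2 (Real.sqrt_nonneg _)
      linarith
    calc cm ^ 2 * C₀ ≤ (16 * (Y * T)) * C₀ := by
          refine mul_le_mul_of_nonneg_right ?_ (by linarith)
          linarith
      _ = 16 * C₀ * Y * T := by ring
  -- the model
  have hmodel : Q2 S m (cfY Y h) - 2 * cm * Q1 S m (cfY Y h) + cm ^ 2 ≤ CM' * T := by
    refine model_limit hLim hU0 hfm hfb hf0 hS0 (N₀ := ⌊yk (Real.log Y) 0⌋₊ + 1) fun N hN => ?_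
    have hN' : yk (Real.log Y) 0 < N := by
      have h7 := Nat.lt_floor_add_one (yk (Real.log Y) 0)
      have h8 : (((⌊yk (Real.log Y) 0⌋₊ + 1 : ℕ)) : ℝ) ≤ N := by exact_mod_cast hN
      push_cast at h8
      linarith
    exact hMain Y K S m N hY hK hKL hS0 hM hN'
  -- conclusion
  have hfin : ∑' k : ℤ, P004.H1.ah Y k * (Dp S m (fun n => chi k n) * Fn (cfY Y h) k - cm) ^ 2 ≤
      (5040 * CM' + C₂ * E₂ + 8 * C₁ * E₁ + 16 * C₀) * Y * T := by
    rw [expand_sq hY0 hP0 hDb hMb]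
    refine (combine hY0.le hcm0 m2 m1 m0 hmodel).trans ?_
    linarith
  calc P004.H1.c0⁻¹ * ∑' k : ℤ, P004.H1.ah Y k * (Dp S m (fun n => chi k n) * Fn (cfY Y h) k - cm) ^ 2
      ≤ P004.H1.c0⁻¹ * ((5040 * CM' + C₂ * E₂ + 8 * C₁ * E₁ + 16 * C₀) * Y * T) := by gcongr
    _ = (P004.H1.c0⁻¹ * (5040 * CM' + C₂ * E₂ + 8 * C₁ * E₁ + 16 * C₀)) * Y * T := by ring
    _ ≤ _ := by
        gcongr
        exact le_max_right _ _

end Moll

variable [Crv]

open Moll in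
open P004 (StRepA StRepB StRepC) in
/-- Module W. -/
theorem pfMoll (hCo : StCoef) (hD : StDiv) (h0 : StTw0) (h1 : StTw1) (h2 : StTw2)
    (hPass : StPass) (hPN : StPassN) (hLim : StLim) (hLN : StLN) (hR2 : StR2) (hR3 : StR3)
    (hR4 : StR4) (hP : StPoly) (hRA : StRepA) (hRB : StRepB) (hRC : StRepC) : StMoll := by
  obtain ⟨n, A1, C1, hC1, hp1⟩ := part1 hCo hD h2 hPass hR2 hP hRC
  obtain ⟨A2, C2, hC2, hp2⟩ := part2 hD h0 hP hR4
  obtain ⟨A3, C3, hC3, hp3⟩ := part3 hD h0 hP hR4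
  obtain ⟨C4, c, hC4, hc, hp4⟩ := part4 hCo hD h0 h1 h2 hPN hLim hLN hR2 hR3 hP hRA hRB
  refine ⟨n, max A1 (max A2 A3), max C1 (max C2 (max C3 C4)), c, le_max_of_le_left hC1, hc, ?_⟩
  intro Y K hY hK hK8
  have hL := logY_ge_one hY
  have hKL : K ≤ Real.log Y := by
    refine hK8.trans ?_
    calc Real.log Y ^ (1 / 8 : ℝ) ≤ Real.log Y ^ (1 : ℝ) :=
          Real.rpow_le_rpow_of_exponent_le hL (by norm_num)
      _ = Real.log Y := Real.rpow_one _
  have hY0 : (0 : ℝ) ≤ Y := Nat.cast_nonneg _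
  have hb1 : C1 ≤ max C1 (max C2 (max C3 C4)) := le_max_left _ _
  have hb2 : C2 ≤ max C1 (max C2 (max C3 C4)) := (le_max_left _ _).trans (le_max_right _ _)
  have hb3 : C3 ≤ max C1 (max C2 (max C3 C4)) :=
    (le_max_left _ _).trans ((le_max_right _ _).trans (le_max_right _ _))
  have hb4 : C4 ≤ max C1 (max C2 (max C3 C4)) :=
    (le_max_right _ _).trans ((le_max_right _ _).trans (le_max_right _ _))
  have ha1 : A1 ≤ max A1 (max A2 A3) := le_max_left _ _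
  have ha2 : A2 ≤ max A1 (max A2 A3) := (le_max_left _ _).trans (le_max_right _ _)
  have ha3 : A3 ≤ max A1 (max A2 A3) := (le_max_right _ _).trans (le_max_right _ _)
  refine ⟨Mj Y K, Mrj Y K, fun j m hj => Mj_split hY K m hj, ?_, ?_, ?_, ?_⟩
  · intro j h b hj hh hs hb hder
    have h2j : (1 : ℝ) ≤ 2 ^ j := one_le_pow₀ (by norm_num)
    have h3 : (1 : ℝ) ≤ K * 2 ^ j := by nlinarith
    refine (hp1 Y K hY hK hKL j h b hj hh hs hb hder).trans ?_
    have h4 : (K * 2 ^ j) ^ A1 ≤ (K * 2 ^ j) ^ max A1 (max A2 A3) := pow_le_pow_right₀ h3 ha1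
    have h5 : 0 ≤ max C1 (max C2 (max C3 C4)) := by linarith
    gcongr
  · intro j _
    have h2j : (1 : ℝ) ≤ 2 ^ j := one_le_pow₀ (by norm_num)
    refine (hp2 Y K hY hK j).trans ?_
    have h4 : ((2 : ℝ) ^ j) ^ A2 ≤ (2 ^ j) ^ max A1 (max A2 A3) := pow_le_pow_right₀ h2j ha2
    have h5 : 0 ≤ max C1 (max C2 (max C3 C4)) := by linarith
    gcongr
  · refine (hp3 Y K hY hK).trans ?_
    have h4 : Real.log Y ^ A3 ≤ Real.log Y ^ max A1 (max A2 A3) := pow_le_pow_right₀ hL ha3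
    have h5 : 0 ≤ max C1 (max C2 (max C3 C4)) := by linarith
    gcongr
  · refine (hp4 Y K hY hK hK8).trans ?_
    gcongr

end P004G
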