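import Vale.Agent.P004G.Iface
import Vale.Agent.P004.H394.Wf

/-!
# P004G, module I1: derivative bounds for the window functions, with a bounded shift
-/

open Real MeasureTheory Set

namespace P004G

namespace Wf

open P004.Wf

lemma shift_iter (f : ℝ → ℝ) (s : ℝ) (k : ℕ) (x : ℝ) :
    iteratedDeriv k (fun x => f (x + s)) x = iteratedDeriv k f (x + s) := by
  rw [iteratedDeriv_comp_add_const]

lemma shift_smooth {f : ℝ → ℝ} {n : ℕ} (hf : ContDiff ℝ n f) (s : ℝ) :
    ContDiff ℝ n (fun x => f (x + s)) :=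
  hf.comp (contDiff_id.add contDiff_const)

/-- the bound of `Gp` in the near windows -/
lemma near_aux {Y : ℕ} (hY : 3 ≤ Y) (j a b : ℕ) {K : ℝ} (hK : 1 ≤ K) {n k : ℕ} (hk : k ≤ n)
    (y : ℝ) (hy : |y| ≤ 5 * wj Y (j + 1)) :
    |(K / Real.log Y) ^ k * Gp (K / Real.log Y) (a - k) (b - k) y| ≤
      K ^ n * (K / 2 ^ j) ^ a * Real.exp (K / 5) * (wj Y (j + 1))⁻¹ ^ k := by
  have hw := wj_pos hY (j + 1)
  have hL := logY_pos hY
  set z := K / Real.log Y with hz
  have hz0 : 0 < z := by positivity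
  have h2j : (0 : ℝ) < 2 ^ j := by positivity
  have h2j1 : (1 : ℝ) ≤ 2 ^ j := one_le_pow₀ (by norm_num)
  have hq0 : 0 ≤ K / 2 ^ j := by positivity
  have hqK : K / 2 ^ j ≤ K := div_le_self (by linarith) h2j1
  have hzw0 : z * wj Y (j + 1) = K / 2 ^ j / 40 := by
    rw [hz]
    unfold wj
    rw [pow_succ]
    field_simp
    norm_num
  have hzx : z * |y| ≤ K / 2 ^ j / 8 := by
    calc z * |y| ≤ z * (5 * wj Y (j + 1)) := mul_le_mul_of_nonneg_left hy hz0.le
      _ = 5 * (z * wj Y (j + 1)) := by ring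
      _ = K / 2 ^ j / 8 := by rw [hzw0]; ring
  have hzw : z * wj Y (j + 1) ≤ K / 2 ^ j := by
    rw [hzw0]
    linarith
  have habs : |z * y| = z * |y| := by rw [abs_mul, abs_of_pos hz0]
  have e1 := Gp_abs_le z y (a - k) (b - k)
  rw [habs] at e1
  rw [abs_mul, abs_of_nonneg (by positivity : 0 ≤ z ^ k)]
  have e2 : (z * |y|) ^ (a - k) ≤ (K / 2 ^ j) ^ (a - k) :=
    pow_le_pow_left₀ (by positivity) (by linarith) _
  have e3 : Real.exp (z * |y|) ≤ Real.exp (K / 5) := by
    refine Real.exp_le_exp.2 (hzx.trans ?_)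
    linarith
  have e4 : (z * wj Y (j + 1)) ^ k * (K / 2 ^ j) ^ (a - k) ≤ K ^ n * (K / 2 ^ j) ^ a := by
    calc (z * wj Y (j + 1)) ^ k * (K / 2 ^ j) ^ (a - k)
        ≤ (K / 2 ^ j) ^ k * (K / 2 ^ j) ^ (a - k) :=
          mul_le_mul_of_nonneg_right (pow_le_pow_left₀ (by positivity) hzw k) (by positivity)
      _ = (K / 2 ^ j) ^ (k - a) * (K / 2 ^ j) ^ a := by
          rw [← pow_add, ← pow_add]
          congr 1
          omega
      _ ≤ K ^ n * (K / 2 ^ j) ^ a := by
          refine mul_le_mul_of_nonneg_right ?_ (by positivity)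
          calc (K / 2 ^ j) ^ (k - a) ≤ K ^ (k - a) := pow_le_pow_left₀ hq0 hqK _
            _ ≤ K ^ n := pow_le_pow_right₀ hK (by omega)
  have e5 : z ^ k = (z * wj Y (j + 1)) ^ k * (wj Y (j + 1))⁻¹ ^ k := by
    rw [← mul_pow, mul_assoc, mul_inv_cancel₀ hw.ne', mul_one]
  calc z ^ k * |Gp z (a - k) (b - k) y|
      ≤ z ^ k * ((K / 2 ^ j) ^ (a - k) * Real.exp (K / 5)) := by
        refine mul_le_mul_of_nonneg_left ?_ (by positivity)
        exact e1.trans (mul_le_mul e2 e3 (Real.exp_pos _).le (by positivity))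
    _ = (z * wj Y (j + 1)) ^ k * (K / 2 ^ j) ^ (a - k) * Real.exp (K / 5) *
          (wj Y (j + 1))⁻¹ ^ k := by
        rw [e5]
        ring
    _ ≤ K ^ n * (K / 2 ^ j) ^ a * Real.exp (K / 5) * (wj Y (j + 1))⁻¹ ^ k := by
        refine mul_le_mul_of_nonneg_right ?_ (by positivity)
        exact mul_le_mul_of_nonneg_right e4 (Real.exp_pos _).le

lemma zw_pow' {Y : ℕ} (hY : 3 ≤ Y) {K : ℝ} (hK : 1 ≤ K) {n k : ℕ} (hk : k ≤ n) :
    (K / Real.log Y) ^ k ≤ (1 + 4 * K) ^ n * (wj Y 0)⁻¹ ^ k := by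
  have hw := wj_pos hY 0
  refine (zw_pow hY hK hk).trans ?_
  refine mul_le_mul_of_nonneg_right ?_ (by positivity)
  exact pow_le_pow_left₀ (by linarith) (by linarith) _

/-- the windows beat any constant -/
lemma large_wj (s₀ : ℝ) : ∃ Y₀ : ℕ, ∀ Y : ℕ, 3 ≤ Y → Y₀ ≤ Y → s₀ ≤ wj Y 0 ∧
    ∀ j : ℕ, (2 : ℝ) ^ j ≤ 2 * Real.log Y ^ (1 / 4 : ℝ) → s₀ ≤ wj Y (j + 1) := by
  obtain ⟨Y₀, hY₀⟩ := exists_nat_gt (Real.exp (1 + (80 * |s₀|) ^ 2))
  refine ⟨Y₀, fun Y hY hYY => ?_⟩
  have hL := logY_pos hY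
  have hY0 : (0 : ℝ) < Y := by
    have : 0 < Y := by omega
    exact_mod_cast this
  have h1 : 1 + (80 * |s₀|) ^ 2 ≤ Real.log Y := by
    rw [Real.le_log_iff_exp_le hY0]
    have : (Y₀ : ℝ) ≤ Y := by exact_mod_cast hYY
    linarith
  set L := Real.log Y with hLdef
  have hL1 : 1 ≤ L := by nlinarith [sq_nonneg (80 * |s₀|)]
  have hs0 : s₀ ≤ |s₀| := le_abs_self _
  have habs : 0 ≤ |s₀| := abs_nonneg _
  have h2 : 80 * |s₀| ≤ L ^ (1 / 2 : ℝ) := by
    rw [← Real.sqrt_eq_rpow]
    apply Real.le_sqrt_of_sq_le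
    linarith
  have h3 : L ^ (1 / 2 : ℝ) ≤ L ^ (3 / 4 : ℝ) :=
    Real.rpow_le_rpow_of_exponent_le hL1 (by norm_num)
  have h4 : L ^ (3 / 4 : ℝ) ≤ L := by
    calc L ^ (3 / 4 : ℝ) ≤ L ^ (1 : ℝ) := Real.rpow_le_rpow_of_exponent_le hL1 (by norm_num)
      _ = L := Real.rpow_one L
  refine ⟨?_, fun j hj => ?_⟩
  · unfold wj
    rw [pow_zero, mul_one, ← hLdef]
    linarith
  · unfold wj
    rw [← hLdef, pow_succ]
    have hq : (0 : ℝ) < L ^ (1 / 4 : ℝ) := by positivity
    have h5 : (20 : ℝ) * (2 ^ j * 2) ≤ 80 * L ^ (1 / 4 : ℝ) := by linarith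
    have h6 : L / (80 * L ^ (1 / 4 : ℝ)) ≤ L / (20 * (2 ^ j * 2)) :=
      div_le_div_of_nonneg_left hL.le (by positivity) h5
    refine le_trans ?_ h6
    rw [le_div_iff₀ (by positivity)]
    have h7 : L = L ^ (3 / 4 : ℝ) * L ^ (1 / 4 : ℝ) := by
      rw [← Real.rpow_add (by linarith)]
      norm_num
    calc s₀ * (80 * L ^ (1 / 4 : ℝ)) ≤ (80 * |s₀|) * L ^ (1 / 4 : ℝ) := by
          nlinarith
      _ ≤ L ^ (3 / 4 : ℝ) * L ^ (1 / 4 : ℝ) := by
          refine mul_le_mul_of_nonneg_right (h2.trans h3) hq.le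
      _ = L := h7.symm

end Wf

open Wf P004.Wf

/-- Module I1. -/
theorem pfWf : StWf where
  smooth := fun Y j n _ => ⟨Wn_smooth Y j n, psi_smooth Y n⟩
  near := by
    intro n s₀ hs₀
    obtain ⟨C, hC1, hC⟩ := eta_bd' n
    obtain ⟨Y₀, hY₀⟩ := large_wj s₀
    refine ⟨2 ^ n * (2 * C), Y₀, ?_, ?_⟩
    · have : (1 : ℝ) ≤ 2 ^ n := one_le_pow₀ (by norm_num)
      nlinarith
    intro Y j a b K s hY hYY hK _ hj hs i hi x
    have hw := wj_pos hY (j + 1)
    have hsw : |s| ≤ wj Y (j + 1) := hs.trans ((hY₀ Y hY hYY).2 j hj)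
    have hG0 : 0 ≤ K ^ n * (K / 2 ^ j) ^ a * Real.exp (K / 5) := by positivity
    have hxs : ∀ x, wj Y (j + 1) ≤ x → x ≤ 4 * wj Y (j + 1) →
        |x + s| ≤ 5 * wj Y (j + 1) := by
      intro x h1 h2
      calc |x + s| ≤ |x| + |s| := abs_add_le _ _
        _ ≤ 4 * wj Y (j + 1) + wj Y (j + 1) := by
            rw [abs_of_pos (lt_of_lt_of_le hw h1)]
            linarith
        _ = 5 * wj Y (j + 1) := by ring
    constructor
    · have h := mul_bd_supp (Wn_smooth Y j n) (shift_smooth (Gp_smooth (K / Real.log Y) a b n) s)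
        hw (by positivity : 0 ≤ 2 * C) hG0 (Wn_zero hY j) (fun k hk x => Wn_bd hY hC j k hk x)
        (fun k hk x hx1 hx2 => by
          rw [shift_iter (Gp (K / Real.log Y) a b) s k x, Gp_iter]
          exact near_aux hY j a b hK hk (x + s) (hxs x hx1 hx2)) i hi x
      refine h.trans (le_of_eq ?_)
      ring
    · have h := mul_bd_supp (Wn_smooth Y j n)
        (shift_smooth (Gp_neg_smooth (K / Real.log Y) a b n) s) hw
        (by positivity : 0 ≤ 2 * C) hG0 (Wn_zero hY j) (fun k hk x => Wn_bd hY hC j k hk x)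
        (fun k hk x hx1 hx2 => by
          rw [shift_iter (fun x => Gp (K / Real.log Y) a b (-x)) s k x, Gp_neg_iter]
          refine near_aux hY j a b hK hk (-(x + s)) ?_
          rw [abs_neg]
          exact hxs x hx1 hx2) i hi x
      refine h.trans (le_of_eq ?_)
      ring
  outer := by
    intro n s₀ hs₀
    obtain ⟨C, hC1, hC⟩ := eta_bd' n
    obtain ⟨Y₀, hY₀⟩ := large_wj s₀
    have hE : (1 : ℝ) ≤ Real.exp (3 * n) := Real.one_le_exp (by positivity)
    have hEs : (1 : ℝ) ≤ Real.exp s₀ := Real.one_le_exp hs₀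
    have h2n : (1 : ℝ) ≤ 2 ^ n := one_le_pow₀ (by norm_num)
    have hEE : (1 : ℝ) ≤ 3 * Real.exp (3 * n) * Real.exp s₀ := by nlinarith
    refine ⟨2 ^ n * (2 ^ n * (C * (1 + C)) * (3 * Real.exp (3 * n) * Real.exp s₀)), Y₀, ?_, ?_⟩
    · have h3 : (1 : ℝ) ≤ C * (1 + C) := by nlinarith
      have h4 : (1 : ℝ) ≤ 2 ^ n * (C * (1 + C)) := by nlinarith
      have h6 : (1 : ℝ) ≤ 2 ^ n * (C * (1 + C)) * (3 * Real.exp (3 * n) * Real.exp s₀) := by
        nlinarith
      nlinarith
    intro Y a b K s hY hYY hK hKL hs i hi x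
    have hw := wj_pos hY 0
    have hL := logY_pos hY
    have hF0 : 0 ≤ 2 ^ n * (C * (1 + C)) := by positivity
    have hz0 : 0 < K / Real.log Y := by positivity
    have hz1 : K / Real.log Y ≤ 1 := (div_le_one hL).2 hKL
    have hs1 := abs_le.1 hs
    have hsw : s₀ ≤ wj Y 0 := (hY₀ Y hY hYY).1
    have hw20 : wj Y 0 = Real.log Y / 20 := by
      unfold wj
      rw [pow_zero, mul_one]
    have hzx : ∀ x, wj Y 0 ≤ x → x ≤ 3 * Real.log Y → 0 ≤ K / Real.log Y * (x + s) ∧
        K / Real.log Y * (x + s) ≤ 3 * (4 / 3 * K) ∧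
        K / Real.log Y * (x + s) ≤ 3 * K + s₀ := by
      intro x hx1 hx2
      have e1 : K / Real.log Y * x ≤ 3 * K := by
        calc K / Real.log Y * x ≤ K / Real.log Y * (3 * Real.log Y) :=
              mul_le_mul_of_nonneg_left hx2 hz0.le
          _ = 3 * K := by field_simp
      have e2 : K / Real.log Y * s ≤ s₀ := by
        calc K / Real.log Y * s ≤ K / Real.log Y * s₀ :=
              mul_le_mul_of_nonneg_left hs1.2 hz0.le
          _ ≤ 1 * s₀ := mul_le_mul_of_nonneg_right hz1 hs₀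
          _ = s₀ := one_mul _
      have e3 : K / Real.log Y * s ≤ K := by
        calc K / Real.log Y * s ≤ K / Real.log Y * Real.log Y := by
              refine mul_le_mul_of_nonneg_left ?_ hz0.le
              rw [hw20] at hsw
              linarith
          _ = K := by field_simp
      refine ⟨mul_nonneg hz0.le (by linarith), ?_, ?_⟩
      · rw [mul_add]
        linarith
      · rw [mul_add]
        linarith
    have h43 : ∀ m : ℕ, (1 + 3 * (4 / 3 * K)) ^ m = (1 + 4 * K) ^ m := by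
      intro m
      congr 1
      ring
    refine ⟨?_, ?_, ?_⟩
    · intro hb
      have hs : ContDiff ℝ n (fun x => Gp (K / Real.log Y) a b x - Real.exp (K / Real.log Y * x)) :=
        (Gp_smooth _ a b n).sub (Real.contDiff_exp.comp (contDiff_const.mul contDiff_id))
      have hG0 : 0 ≤ 3 * Real.exp (3 * n) * Real.exp s₀ * (1 + 4 * K) ^ (a + n) := by positivity
      have h := mul_bd_supp (psi_smooth Y n) (shift_smooth hs s) hw hF0 hG0 (psi_zero hY)
        (fun k hk x => psi_bd hY hC k hk x)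
        (fun k hk x hx1 hx2 => by
          obtain ⟨ht1, ht2, -⟩ := hzx x hx1 hx2
          rw [shift_iter (fun x => Gp (K / Real.log Y) a b x - Real.exp (K / Real.log Y * x)) s k x]
          have e0 : iteratedDeriv k (fun x => Gp (K / Real.log Y) a b x -
              Real.exp (K / Real.log Y * x)) (x + s) = (K / Real.log Y) ^ k *
              (Gp (K / Real.log Y) (a - k) (b - k) (x + s) -
                Real.exp (K / Real.log Y * (x + s))) := by
            have e1 : iteratedDeriv k (fun x => Gp (K / Real.log Y) a b x -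
              Real.exp (K / Real.log Y * x)) (x + s) =
              iteratedDeriv k (Gp (K / Real.log Y) a b) (x + s) -
              iteratedDeriv k (fun x => Real.exp (K / Real.log Y * x)) (x + s) :=
              iteratedDeriv_sub (Gp_smooth _ a b k).contDiffAt
                (Real.contDiff_exp.comp (contDiff_const.mul contDiff_id)).contDiffAt
            rw [e1, Gp_iter, iteratedDeriv_exp_const_mul]
            ring
          rw [e0, abs_mul, abs_of_nonneg (by positivity : 0 ≤ (K / Real.log Y) ^ k)]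
          have e2 := Gp_sub_exp a b hk ht1 ht2 (by linarith : 20 * (4 / 3 * K) ≤ (b : ℝ))
          rw [h43] at e2
          calc (K / Real.log Y) ^ k * |Gp (K / Real.log Y) (a - k) (b - k) (x + s) -
                Real.exp (K / Real.log Y * (x + s))|
              ≤ ((1 + 4 * K) ^ n * (wj Y 0)⁻¹ ^ k) * (2 * Real.exp (3 * n) * (1 + 4 * K) ^ a) :=
                mul_le_mul (zw_pow' hY hK hk) e2 (abs_nonneg _) (by positivity)
            _ = 2 * Real.exp (3 * n) * 1 * ((1 + 4 * K) ^ (a + n) * (wj Y 0)⁻¹ ^ k) := by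
                rw [pow_add]
                ring
            _ ≤ 3 * Real.exp (3 * n) * Real.exp s₀ * ((1 + 4 * K) ^ (a + n) * (wj Y 0)⁻¹ ^ k) := by
                refine mul_le_mul_of_nonneg_right ?_ (by positivity)
                refine mul_le_mul (by linarith) hEs (by norm_num) (by positivity)
            _ = 3 * Real.exp (3 * n) * Real.exp s₀ * (1 + 4 * K) ^ (a + n) *
                  (wj Y 0)⁻¹ ^ k := by ring) i hi x
      refine h.trans (le_of_eq ?_)
      ring
    · intro hb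
      have hG0 : 0 ≤ 3 * Real.exp (3 * n) * Real.exp s₀ * (1 + 4 * K) ^ (a + n) := by positivity
      have h := mul_bd_supp (psi_smooth Y n) (shift_smooth (Gp_neg_smooth (K / Real.log Y) a b n) s)
        hw hF0 hG0
        (psi_zero hY) (fun k hk x => psi_bd hY hC k hk x)
        (fun k hk x hx1 hx2 => by
          obtain ⟨ht1, ht2, -⟩ := hzx x hx1 hx2
          rw [shift_iter (fun x => Gp (K / Real.log Y) a b (-x)) s k x, Gp_neg_iter, abs_mul,
            abs_of_nonneg (by positivity : 0 ≤ (K / Real.log Y) ^ k)]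
          have e2 := Gp_neg_bd a b hk ht1 ht2 (by linarith : 10 * (4 / 3 * K) ≤ (b : ℝ))
          rw [h43] at e2
          calc (K / Real.log Y) ^ k * |Gp (K / Real.log Y) (a - k) (b - k) (-(x + s))|
              ≤ ((1 + 4 * K) ^ n * (wj Y 0)⁻¹ ^ k) * (3 * Real.exp (3 * n) * (1 + 4 * K) ^ a) :=
                mul_le_mul (zw_pow' hY hK hk) e2 (abs_nonneg _) (by positivity)
            _ = 3 * Real.exp (3 * n) * 1 * ((1 + 4 * K) ^ (a + n) * (wj Y 0)⁻¹ ^ k) := by
                rw [pow_add]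
                ring
            _ ≤ 3 * Real.exp (3 * n) * Real.exp s₀ * ((1 + 4 * K) ^ (a + n) * (wj Y 0)⁻¹ ^ k) := by
                refine mul_le_mul_of_nonneg_right ?_ (by positivity)
                refine mul_le_mul_of_nonneg_left hEs (by positivity)
            _ = 3 * Real.exp (3 * n) * Real.exp s₀ * (1 + 4 * K) ^ (a + n) *
                  (wj Y 0)⁻¹ ^ k := by ring) i hi x
      refine h.trans (le_of_eq ?_)
      ring
    · have hG0 : 0 ≤ (1 + 4 * K) ^ n * (Real.exp (3 * K) * Real.exp s₀) := by positivity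
      have h := mul_bd_supp (psi_smooth Y n) (shift_smooth (Gp_neg_smooth (K / Real.log Y) a b n) s)
        hw hF0 hG0
        (psi_zero hY) (fun k hk x => psi_bd hY hC k hk x)
        (fun k hk x hx1 hx2 => by
          obtain ⟨ht1, -, ht3⟩ := hzx x hx1 hx2
          rw [shift_iter (fun x => Gp (K / Real.log Y) a b (-x)) s k x, Gp_neg_iter, abs_mul,
            abs_of_nonneg (by positivity : 0 ≤ (K / Real.log Y) ^ k)]
          have e1 : |Gp (K / Real.log Y) (a - k) (b - k) (-(x + s))| ≤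
              Real.exp (3 * K) * Real.exp s₀ := by
            have := Gp_abs_le_exp (K / Real.log Y) (-(x + s)) (a - k) (b - k)
            rw [mul_neg, abs_neg, abs_of_nonneg ht1] at this
            refine this.trans ?_
            rw [← Real.exp_add]
            exact Real.exp_le_exp.2 ht3
          calc (K / Real.log Y) ^ k * |Gp (K / Real.log Y) (a - k) (b - k) (-(x + s))|
              ≤ ((1 + 4 * K) ^ n * (wj Y 0)⁻¹ ^ k) * (Real.exp (3 * K) * Real.exp s₀) :=
                mul_le_mul (zw_pow' hY hK hk) e1 (abs_nonneg _) (by positivity)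
            _ = (1 + 4 * K) ^ n * (Real.exp (3 * K) * Real.exp s₀) * (wj Y 0)⁻¹ ^ k := by
                ring) i hi x
      refine h.trans ?_
      have hE3 : (1 : ℝ) ≤ 3 * Real.exp (3 * n) := by linarith
      have hP : 0 ≤ 2 ^ n * (2 ^ n * (C * (1 + C))) * ((1 + 4 * K) ^ n *
          (Real.exp (3 * K) * Real.exp s₀)) * (wj Y 0)⁻¹ ^ i := by positivity
      calc 2 ^ n * (2 ^ n * (C * (1 + C)) * ((1 + 4 * K) ^ n * (Real.exp (3 * K) *
            Real.exp s₀))) * (wj Y 0)⁻¹ ^ i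
          = 2 ^ n * (2 ^ n * (C * (1 + C))) * ((1 + 4 * K) ^ n * (Real.exp (3 * K) *
            Real.exp s₀)) * (wj Y 0)⁻¹ ^ i * 1 := by ring
        _ ≤ 2 ^ n * (2 ^ n * (C * (1 + C))) * ((1 + 4 * K) ^ n * (Real.exp (3 * K) *
            Real.exp s₀)) * (wj Y 0)⁻¹ ^ i * (3 * Real.exp (3 * n)) :=
            mul_le_mul_of_nonneg_left hE3 hP
        _ = 2 ^ n * (2 ^ n * (C * (1 + C)) * (3 * Real.exp (3 * n) * Real.exp s₀)) *
            (1 + 4 * K) ^ n * Real.exp (3 * K) * (wj Y 0)⁻¹ ^ i := by ring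

end P004G
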