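import Mathlib

/-!
# P004G, Gauss sums of a completely multiplicative periodic function on a principal ideal domain

`Φ : O → ℂ` completely multiplicative, `n`-periodic, ramified at every prime where it vanishes.
`e` an additive character of `O` which identifies `O / n` with its dual. For a divisibility-minimal
period `F` (`F * F' = n`) the finite Fourier transform `w ↦ ∑_{z mod n} Φ z e(z w)` vanishes
outside the multiples of `F'` and equals `c * conj (Φ γ)` at `F' * γ`.
-/

namespace P004G
namespace Gs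

open Finset

variable {O : Type*} [CommRing O] [IsDomain O] [IsPrincipalIdealRing O]

/-- `F` is a period of `Φ` -/
def Per (Φ : O → ℂ) (F : O) : Prop := ∀ z w : O, F ∣ z - w → Φ z = Φ w

/-- the sum of a function over the residues modulo `n` -/
noncomputable def RSum (n : O) [Fintype (O ⧸ Ideal.span {n})] (h : O → ℂ) : ℂ :=
  ∑ q : O ⧸ Ideal.span {n}, h q.out

section

variable {n : O} [Fintype (O ⧸ Ideal.span {n})]

omit [IsDomain O] [IsPrincipalIdealRing O] in
lemma out_dvd (n z : O) : n ∣ (Ideal.Quotient.mk (Ideal.span {n}) z).out - z := by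
  rw [← Ideal.mem_span_singleton, ← Ideal.Quotient.eq]
  exact Quotient.out_eq _

omit [IsDomain O] [IsPrincipalIdealRing O] in
lemma per_out {h : O → ℂ} {F : O} (hF : Per h F) (z : O) :
    h (Ideal.Quotient.mk (Ideal.span {F}) z).out = h z := hF _ _ (out_dvd F z)

omit [IsDomain O] [IsPrincipalIdealRing O] in
/-- translation invariance -/
lemma RSum_add {h : O → ℂ} (hn : Per h n) (a : O) : RSum n (fun z => h (z + a)) = RSum n h := by
  classical
  unfold RSum
  rw [← Equiv.sum_comp (Equiv.addRight (Ideal.Quotient.mk (Ideal.span {n}) a))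
    (fun q : O ⧸ Ideal.span {n} => h q.out)]
  refine sum_congr rfl fun q _ => ?_
  simp only [Equiv.coe_addRight]
  apply hn
  have h1 : n ∣ (q + Ideal.Quotient.mk (Ideal.span {n}) a).out - (q.out + a) := by
    have h2 : q + Ideal.Quotient.mk (Ideal.span {n}) a =
        Ideal.Quotient.mk (Ideal.span {n}) (q.out + a) := by
      rw [map_add]
      congr 1
      exact (Quotient.out_eq q).symm
    rw [h2]
    exact out_dvd n _
  rw [← neg_sub]
  exact (dvd_neg).2 h1

/-- the sum of a function with period `F ∣ n` through the residues mod `F` -/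
lemma RSum_factor {F : O} (hFn : F ∣ n) [Fintype (O ⧸ Ideal.span {F})] :
    ∃ c : ℕ, ∀ h : O → ℂ, Per h F → RSum n h = c * RSum F h := by
  classical
  have hle : Ideal.span {n} ≤ Ideal.span {F} := Ideal.span_singleton_le_span_singleton.2 hFn
  set p := Ideal.Quotient.factor hle with hp
  have hsurj : Function.Surjective p := Ideal.Quotient.factor_surjective hle
  refine ⟨(univ.filter (fun q : O ⧸ Ideal.span {n} => p q = 0)).card, fun h hF => ?_⟩
  unfold RSum
  have h1 : ∀ q : O ⧸ Ideal.span {n}, h q.out = h (p q).out := by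
    intro q
    have h2 : p q = Ideal.Quotient.mk (Ideal.span {F}) q.out := by
      conv_lhs => rw [← Quotient.out_eq q]
      rfl
    rw [h2, per_out hF]
  rw [sum_congr rfl (fun q _ => h1 q),
    ← sum_fiberwise (s := univ) (g := fun q => p q) (f := fun q => h (p q).out), mul_sum]
  refine sum_congr rfl fun x _ => ?_
  have h3 : ∑ q ∈ univ.filter (fun q => p q = x), h (p q).out =
      ∑ q ∈ univ.filter (fun q => p q = x), h x.out := by
    refine sum_congr rfl fun q hq => ?_
    rw [(mem_filter.1 hq).2]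
  rw [h3, sum_const, nsmul_eq_mul]
  congr 2
  exact AddMonoidHom.card_fiber_eq_of_mem_range (p : (O ⧸ Ideal.span {n}) →+ (O ⧸ Ideal.span {F}))
    (hsurj x) ⟨0, map_zero _⟩

omit [IsDomain O] [IsPrincipalIdealRing O] in
lemma RSum_unit {h : O → ℂ} {F : O} [Fintype (O ⧸ Ideal.span {F})] (hF : Per h F) {t : O}
    (ht : IsCoprime t F) : RSum F (fun z => h (t * z)) = RSum F h := by
  classical
  unfold RSum
  obtain ⟨a, b, hab⟩ := ht
  have hu : IsUnit (Ideal.Quotient.mk (Ideal.span {F}) t) := by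
    refine IsUnit.of_mul_eq_one (Ideal.Quotient.mk (Ideal.span {F}) a) ?_
    rw [← map_mul, ← map_one (Ideal.Quotient.mk (Ideal.span {F})), Ideal.Quotient.eq,
      Ideal.mem_span_singleton]
    exact ⟨-b, by linear_combination hab⟩
  rw [← Equiv.sum_comp (Units.mulLeft hu.unit)
    (fun q : O ⧸ Ideal.span {F} => h q.out)]
  refine sum_congr rfl fun q _ => ?_
  apply hF
  have h2 : (Units.mulLeft hu.unit) q = Ideal.Quotient.mk (Ideal.span {F}) (t * q.out) := by
    rw [map_mul, Units.mulLeft_apply, IsUnit.unit_spec]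
    congr 1
    exact (Quotient.out_eq q).symm
  rw [h2, ← neg_sub]
  exact (dvd_neg).2 (out_dvd F _)

omit [IsDomain O] [IsPrincipalIdealRing O] in
lemma fin_of_dvd {F : O} (hFn : F ∣ n) : Finite (O ⧸ Ideal.span {F}) :=
  Finite.of_surjective _ (Ideal.Quotient.factor_surjective
    (Ideal.span_singleton_le_span_singleton.2 hFn))

/-- multiplication by `t` coprime to the period -/
lemma RSum_mul {h : O → ℂ} {F : O} (hF : Per h F) (hFn : F ∣ n) {t : O}
    (ht : IsCoprime t F) : RSum n (fun z => h (t * z)) = RSum n h := by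
  classical
  have : Finite (O ⧸ Ideal.span {F}) := fin_of_dvd hFn
  let _ : Fintype (O ⧸ Ideal.span {F}) := Fintype.ofFinite _
  obtain ⟨c, hc⟩ := RSum_factor (n := n) hFn
  have h1 : Per (fun z => h (t * z)) F := by
    intro z w hzw
    apply hF
    rw [← mul_sub]
    exact Dvd.dvd.mul_left hzw t
  rw [hc _ hF, hc _ h1, RSum_unit hF ht]

/-- the finite Fourier transform of a completely multiplicative function -/
theorem main {n : O} [Fintype (O ⧸ Ideal.span {n})] (hn0 : n ≠ 0) (e : O → ℂ)
    (eadd : ∀ x y, e (x + y) = e x * e y) (en : ∀ t, e (n * t) = 1)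
    (eprim : ∀ z, (∀ t, e (z * t) = 1) → n ∣ z)
    (Φ : O → ℂ) (h1 : Φ 1 = 1) (hmul : ∀ z w, Φ (z * w) = Φ z * Φ w)
    (hval : ∀ z, Φ z = 0 ∨ Φ z * (starRingEnd ℂ) (Φ z) = 1) (hper : Per Φ n)
    (hram : ∀ ϖ G : O, Prime ϖ → Φ ϖ = 0 → ∀ k : ℕ, n = ϖ ^ k * G → ¬ ϖ ∣ G →
      ∃ t, G ∣ t - 1 ∧ Φ t ≠ 0 ∧ Φ t ≠ 1) :
    ∃ F F' : O, F * F' = n ∧ Per Φ F ∧ (∀ ϖ, Prime ϖ → Φ ϖ = 0 → ϖ ∣ F) ∧
      ∃ c : ℂ, (∀ w, ¬ F' ∣ w → RSum n (fun z => Φ z * e (z * w)) = 0) ∧
        ∀ γ, RSum n (fun z => Φ z * e (z * (F' * γ))) = c * (starRingEnd ℂ) (Φ γ) := by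
  classical
  -- a minimal period
  obtain ⟨F, ⟨hFn, hF⟩, hmin⟩ := (IsWellFounded.wf (r := DvdNotUnit (α := O))).has_min
    {F : O | F ∣ n ∧ Per Φ F} ⟨n, dvd_rfl, hper⟩
  obtain ⟨F', hFF⟩ := hFn
  have hF0 : F ≠ 0 := by rintro rfl; rw [zero_mul] at hFF; exact hn0 hFF
  have hFdvd : F ∣ n := ⟨F', hFF⟩
  -- primes dividing `F`
  have hmin' : ∀ ϖ F₁ : O, Prime ϖ → F = ϖ * F₁ → ¬ Per Φ F₁ := by
    intro ϖ F₁ hp hFe hP
    refine hmin F₁ ⟨(Dvd.intro_left ϖ hFe.symm).trans hFdvd, hP⟩ ⟨?_, ϖ, hp.not_isUnit, ?_⟩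
    · rintro rfl; rw [mul_zero] at hFe; exact hF0 hFe
    · rw [hFe, mul_comm]
  have hp0 : ∀ ϖ : O, Prime ϖ → ϖ ∣ F → Φ ϖ = 0 := by
    intro ϖ hp hd
    obtain ⟨F₁, hFe⟩ := hd
    by_contra hne
    apply hmin' ϖ F₁ hp hFe
    intro z w hzw
    apply mul_left_cancel₀ hne
    rw [← hmul, ← hmul]
    apply hF
    rw [← mul_sub, hFe]
    exact mul_dvd_mul_left ϖ hzw
  have hcop : ∀ z : O, Φ z ≠ 0 → IsCoprime z F := by
    intro z hz
    apply isCoprime_of_prime_dvd (fun h => hF0 h.2)
    intro ϖ hp hd hd2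
    apply hz
    obtain ⟨y, rfl⟩ := hd
    rw [hmul, hp0 ϖ hp hd2, zero_mul]
  have hcop' : ∀ z : O, IsCoprime z F → ∃ z' : O, F ∣ z * z' - 1 ∧ Φ z' = (starRingEnd ℂ) (Φ z) ∧
      Φ z ≠ 0 ∧ Φ z' * Φ z = 1 := by
    rintro z ⟨a, b, hab⟩
    have h2 : F ∣ z * a - 1 := ⟨-b, by linear_combination hab⟩
    have h3 : Φ z * Φ a = 1 := by rw [← hmul, hF _ _ h2, h1]
    have h4 : Φ z ≠ 0 := left_ne_zero_of_mul_eq_one h3
    refine ⟨a, h2, ?_, h4, by rw [mul_comm]; exact h3⟩
    apply mul_left_cancel₀ h4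
    rw [h3]
    rcases hval z with h | h
    · exact absurd h h4
    · exact h.symm
  -- the functions `z ↦ Φ z e(z F' γ)` are `F`-periodic
  have eper : ∀ γ z w : O, F ∣ z - w → e (z * (F' * γ)) = e (w * (F' * γ)) := by
    intro γ z w hzw
    obtain ⟨s, hs⟩ := hzw
    have h2 : z * (F' * γ) = w * (F' * γ) + n * (s * γ) := by
      rw [hFF]; linear_combination (F' * γ) * hs
    rw [h2, eadd, en, mul_one]
  have hperγ : ∀ γ : O, Per (fun z => Φ z * e (z * (F' * γ))) F := by
    intro γ z w hzw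
    simp only
    rw [hF z w hzw, eper γ z w hzw]
  refine ⟨F, F', hFF.symm, hF, ?_, RSum n (fun z => Φ z * e (z * F')), ?_, ?_⟩
  · intro ϖ hp hz
    by_contra hd
    have h2 : IsCoprime ϖ F := by
      apply isCoprime_of_prime_dvd (fun h => hF0 h.2)
      intro q hq hq1 hq2
      exact hd (((hq.associated_of_dvd hp hq1).symm.dvd).trans hq2)
    exact (hcop' ϖ h2).choose_spec.2.2.1 hz
  · intro w hw
    by_contra hne
    apply hw
    have h2 : n ∣ F * w := by
      apply eprim
      intro t
      have hP : Per (fun z => Φ z * e (z * w)) n := by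
        intro x y hxy
        simp only
        rw [hper x y hxy]
        obtain ⟨s, hs⟩ := hxy
        have h3 : x * w = y * w + n * (s * w) := by linear_combination w * hs
        rw [h3, eadd, en, mul_one]
      have h3 := RSum_add hP (F * t)
      have h4 : RSum n (fun z => (fun z => Φ z * e (z * w)) (z + F * t)) =
          e (F * w * t) * RSum n (fun z => Φ z * e (z * w)) := by
        unfold RSum
        rw [mul_sum]
        refine sum_congr rfl fun q _ => ?_
        simp only
        have h5 : Φ (q.out + F * t) = Φ q.out := hF _ _ ⟨t, by ring⟩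
        rw [h5, add_mul, eadd, show F * t * w = F * w * t by ring]
        ring
      rw [h4] at h3
      exact mul_right_cancel₀ hne (by rw [h3, one_mul])
    rw [hFF] at h2
    exact (mul_dvd_mul_iff_left hF0).1 h2
  · intro γ
    by_cases hγ : Φ γ = 0
    · rw [hγ, map_zero, mul_zero]
      have h2 : ¬ IsCoprime γ F := fun h => (hcop' γ h).choose_spec.2.2.1 hγ
      have h3 : ∃ ϖ : O, Prime ϖ ∧ ϖ ∣ γ ∧ ϖ ∣ F := by
        by_contra hcon
        push Not at hcon
        exact h2 (isCoprime_of_prime_dvd (fun h => hF0 h.2) hcon)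
      obtain ⟨ϖ, hp, ⟨γ₁, hγ₁⟩, hpF⟩ := h3
      obtain ⟨F₁, hF₁⟩ := hpF
      have hϖ0 : Φ ϖ = 0 := hp0 ϖ hp ⟨F₁, hF₁⟩
      have key : ∃ t, F₁ ∣ t - 1 ∧ Φ t ≠ 0 ∧ Φ t ≠ 1 := by
        by_cases hd : ϖ ∣ F₁
        · have hnp := hmin' ϖ F₁ hp hF₁
          unfold Per at hnp
          push Not at hnp
          obtain ⟨z, w, hzw, hne⟩ := hnp
          -- both primes sets agree
          have hco : ∀ t : O, F₁ ∣ t - 1 → IsCoprime t F := by
            intro t ht
            apply isCoprime_of_prime_dvd (fun h => hF0 h.2)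
            intro q hq hq1 hq2
            have h4 : q ∣ F₁ := by
              rw [hF₁] at hq2
              rcases hq.dvd_or_dvd hq2 with h | h
              · exact h.trans hd
              · exact h
            have h5 : q ∣ 1 := by
              have := dvd_sub hq1 (h4.trans ht)
              rwa [sub_sub_cancel] at this
            exact hq.not_isUnit (isUnit_of_dvd_one h5)
          -- wlog `Φ w ≠ 0`
          have aux : ∀ z w : O, F₁ ∣ z - w → Φ z ≠ Φ w → Φ w ≠ 0 →
              ∃ t, F₁ ∣ t - 1 ∧ Φ t ≠ 0 ∧ Φ t ≠ 1 := by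
            intro z w hzw hne hw
            obtain ⟨w', hw1, -, hw3, hw4⟩ := hcop' w (hcop w hw)
            have h6 : F₁ ∣ w * w' - 1 := (Dvd.intro_left ϖ hF₁.symm).trans hw1
            have h7 : F₁ ∣ z * w' - 1 := by
              have h8 := dvd_add (Dvd.dvd.mul_right hzw w') h6
              have h9 : (z - w) * w' + (w * w' - 1) = z * w' - 1 := by ring
              rwa [h9] at h8
            refine ⟨z * w', h7, (hcop' _ (hco _ h7)).choose_spec.2.2.1, ?_⟩
            rw [hmul]
            intro h10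
            apply hne
            have h11 : Φ w' ≠ 0 := left_ne_zero_of_mul_eq_one hw4
            apply mul_right_cancel₀ h11
            rw [h10, mul_comm, hw4]
          by_cases hw : Φ w = 0
          · apply aux w z _ (Ne.symm hne) (by rw [hw] at hne; exact hne)
            rw [← neg_sub]; exact (dvd_neg).2 hzw
          · exact aux z w hzw hne hw
        · have hfm : FiniteMultiplicity ϖ n := FiniteMultiplicity.of_prime_left hp hn0
          obtain ⟨G, hG, hG2⟩ := hfm.exists_eq_pow_mul_and_not_dvd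
          obtain ⟨t, ht1, ht2, ht3⟩ := hram ϖ G hp hϖ0 _ hG hG2
          refine ⟨t, dvd_trans ?_ ht1, ht2, ht3⟩
          have h4 : F₁ ∣ ϖ ^ multiplicity ϖ n * G := by
            rw [← hG]; exact (Dvd.intro_left ϖ hF₁.symm).trans hFdvd
          have h5 : IsCoprime F₁ (ϖ ^ multiplicity ϖ n) := by
            apply IsCoprime.pow_right
            apply IsCoprime.symm
            exact (Irreducible.coprime_iff_not_dvd hp.irreducible).2 hd
          exact h5.dvd_of_dvd_mul_left h4
      obtain ⟨t, ht1, ht2, ht3⟩ := key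
      have h6 := RSum_mul (hperγ γ) hFdvd (hcop t ht2)
      have h7 : RSum n (fun z => (fun z => Φ z * e (z * (F' * γ))) (t * z)) =
          Φ t * RSum n (fun z => Φ z * e (z * (F' * γ))) := by
        unfold RSum
        rw [mul_sum]
        refine sum_congr rfl fun q _ => ?_
        simp only
        obtain ⟨s, hs⟩ := ht1
        have h8 : t * q.out * (F' * γ) = q.out * (F' * γ) + n * (q.out * γ₁ * s) := by
          linear_combination (q.out * F' * γ) * hs - (q.out * γ₁ * s) * hFF -
            (F' * q.out * γ₁ * s) * hF₁ + (q.out * F' * F₁ * s) * hγ₁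
        rw [h8, eadd, en, mul_one, hmul]
        ring
      rw [h7] at h6
      by_contra hne
      exact ht3 (mul_right_cancel₀ hne (by rw [h6, one_mul]))
    · obtain ⟨γ', hγ1, hγ2, hγ3, hγ4⟩ := hcop' γ (hcop γ hγ)
      have hγ' : IsCoprime γ' F := by
        obtain ⟨s, hs⟩ := hγ1
        exact ⟨γ, -s, by linear_combination hs⟩
      have h6 := RSum_mul (hperγ γ) hFdvd hγ'
      rw [← h6, ← hγ2]
      unfold RSum
      rw [sum_mul]
      refine sum_congr rfl fun q _ => ?_
      simp only
      obtain ⟨s, hs⟩ := hγ1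
      have h8 : γ' * q.out * (F' * γ) = q.out * F' + n * (q.out * s) := by
        linear_combination (q.out * F') * hs - (q.out * s) * hFF
      rw [h8, eadd, en, mul_one, hmul]
      ring

/-- the transform of a completely multiplicative function with given modulus `F`, `F * G = n` -/
theorem main2 {n F G : O} [Fintype (O ⧸ Ideal.span {n})] (hn0 : n ≠ 0) (e : O → ℂ)
    (eadd : ∀ x y, e (x + y) = e x * e y) (en : ∀ t, e (n * t) = 1)
    (eprim : ∀ z, (∀ t, e (z * t) = 1) → n ∣ z)
    (Φ : O → ℂ) (h1 : Φ 1 = 1) (hmul : ∀ z w, Φ (z * w) = Φ z * Φ w)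
    (hval : ∀ z, Φ z = 0 ∨ Φ z * (starRingEnd ℂ) (Φ z) = 1) (hFG : F * G = n) (hF : Per Φ F)
    (hcop : ∀ z, Φ z ≠ 0 → IsCoprime z n)
    (hprim : ∀ ϖ : O, Prime ϖ → ϖ ∣ n → ∃ a, Φ a ≠ 0 ∧ Φ a ≠ 1 ∧ n ∣ (a - 1) * (G * ϖ)) :
    (∀ w, ¬ G ∣ w → RSum n (fun z => Φ z * e (z * w)) = 0) ∧
      ∀ γ, RSum n (fun z => Φ z * e (z * (G * γ))) =
        RSum n (fun z => Φ z * e (z * G)) * (starRingEnd ℂ) (Φ γ) := by
  classical
  have hper : Per Φ n := fun z w hzw => hF z w ((Dvd.intro G hFG).trans hzw)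
  have hF0 : F ≠ 0 := by rintro rfl; rw [zero_mul] at hFG; exact hn0 hFG.symm
  have hP : ∀ w, Per (fun z => Φ z * e (z * w)) n := by
    intro w x y hxy
    simp only
    rw [hper x y hxy]
    obtain ⟨s, hs⟩ := hxy
    have h3 : x * w = y * w + n * (s * w) := by linear_combination w * hs
    rw [h3, eadd, en, mul_one]
  refine ⟨?_, ?_⟩
  · intro w hw
    by_contra hne
    apply hw
    have h2 : n ∣ F * w := by
      apply eprim
      intro t
      have h3 := RSum_add (hP w) (F * t)
      have h4 : RSum n (fun z => (fun z => Φ z * e (z * w)) (z + F * t)) =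
          e (F * w * t) * RSum n (fun z => Φ z * e (z * w)) := by
        unfold RSum
        rw [mul_sum]
        refine sum_congr rfl fun q _ => ?_
        simp only
        have h5 : Φ (q.out + F * t) = Φ q.out := hF _ _ ⟨t, by ring⟩
        rw [h5, add_mul, eadd, show F * t * w = F * w * t by ring]
        ring
      rw [h4] at h3
      exact mul_right_cancel₀ hne (by rw [h3, one_mul])
    rw [← hFG] at h2
    exact (mul_dvd_mul_iff_left hF0).1 h2
  · intro γ
    by_cases hγ : Φ γ = 0
    · rw [hγ, map_zero, mul_zero]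
      have h3 : ∃ ϖ : O, Prime ϖ ∧ ϖ ∣ γ ∧ ϖ ∣ n := by
        by_contra hcon
        push Not at hcon
        obtain ⟨a, b, hab⟩ := isCoprime_of_prime_dvd (fun h => hn0 h.2) hcon
        have h4 : Φ (a * γ) = 1 := by
          rw [← h1]
          exact hper _ _ ⟨-b, by linear_combination hab⟩
        rw [hmul, hγ, mul_zero] at h4
        exact zero_ne_one h4
      obtain ⟨ϖ, hp, ⟨γ₁, hγ₁⟩, hpn⟩ := h3
      obtain ⟨t, ht2, ht3, ht1⟩ := hprim ϖ hp hpn
      have h6 := RSum_mul (hP (G * γ)) dvd_rfl (hcop t ht2)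
      have h7 : RSum n (fun z => (fun z => Φ z * e (z * (G * γ))) (t * z)) =
          Φ t * RSum n (fun z => Φ z * e (z * (G * γ))) := by
        unfold RSum
        rw [mul_sum]
        refine sum_congr rfl fun q _ => ?_
        simp only
        obtain ⟨s, hs⟩ := ht1
        have h8 : t * q.out * (G * γ) = q.out * (G * γ) + n * (q.out * γ₁ * s) := by
          linear_combination (q.out * γ₁) * hs + (q.out * G * (t - 1)) * hγ₁
        rw [h8, eadd, en, mul_one, hmul]
        ring
      rw [h7] at h6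
      by_contra hne
      exact ht3 (mul_right_cancel₀ hne (by rw [h6, one_mul]))
    · obtain ⟨a, b, hab⟩ := hcop γ hγ
      have h4 : Φ a * Φ γ = 1 := by
        rw [← hmul, ← h1]
        exact hper _ _ ⟨-b, by linear_combination hab⟩
      have h5 : Φ a = (starRingEnd ℂ) (Φ γ) := by
        apply mul_left_cancel₀ hγ
        rw [mul_comm, h4]
        rcases hval γ with h | h
        · exact absurd h hγ
        · exact h.symm
      have ha : IsCoprime a n := ⟨γ, b, by rw [← hab]; ring⟩
      have h6 := RSum_mul (hP (G * γ)) dvd_rfl ha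
      rw [← h6, ← h5]
      unfold RSum
      rw [sum_mul]
      refine sum_congr rfl fun q _ => ?_
      simp only
      have h8 : a * q.out * (G * γ) = q.out * G + n * (-(q.out * G * b)) := by
        linear_combination (q.out * G) * hab
      rw [h8, eadd, en, mul_one, hmul]
      ring

end

end Gs
end P004G
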