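import Vale.Agent.P004.C1

/-!
# P004G, two-dimensional Poisson summation with two weights
-/

open Real MeasureTheory Set
open scoped ENNReal

namespace P004G
namespace Gs

open P004 (dft1 dft2 pfTw bdd_two summable_prod_gauss)

/-- the Gaussian with two weights -/
noncomputable def gk (s t : ℝ) (p : ℤ × ℤ) : ℝ :=
  Real.exp (-π * (p.1 : ℝ) ^ 2 * s) * Real.exp (-π * (p.2 : ℝ) ^ 2 * t)

lemma summable_fst {s t : ℝ} (hs : 0 < s) (ht : 0 < t) (c : ℤ × ℤ → ℂ) (B : ℝ)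
    (hc : ∀ p, ‖c p‖ ≤ B) :
    Summable (fun p : ℤ × ℤ => c p * (((p.1 : ℝ) * gk s t p : ℝ) : ℂ)) := by
  refine (summable_prod_gauss hs ht c B hc).congr ?_
  intro p
  unfold gk
  rw [mul_assoc]

lemma summable_snd {s t : ℝ} (hs : 0 < s) (ht : 0 < t) (c : ℤ × ℤ → ℂ) (B : ℝ)
    (hc : ∀ p, ‖c p‖ ≤ B) :
    Summable (fun p : ℤ × ℤ => c p * (((p.2 : ℝ) * gk s t p : ℝ) : ℂ)) := by
  have h := summable_fst ht hs (fun p => c (p.2, p.1)) B (fun p => hc _)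
  have h2 := (Equiv.prodComm ℤ ℤ).summable_iff.2 h
  refine h2.congr ?_
  intro p
  simp only [Function.comp_def, Equiv.prodComm_apply, Prod.swap]
  unfold gk
  simp only
  rw [mul_comm (Real.exp (-π * (p.2 : ℝ) ^ 2 * t))]

theorem poisson_fst (M : ℕ) [NeZero M] (f : ZMod M → ZMod M → ℂ) {s t : ℝ} (hs : 0 < s)
    (ht : 0 < t) :
    ∑' p : ℤ × ℤ, f p.1 p.2 * (((p.1 : ℝ) * gk s t p : ℝ) : ℂ) =
    (-Complex.I / (M ^ 3 * (s * √s * √t) : ℝ) : ℂ) * ∑' p : ℤ × ℤ, dft2 M f p.1 p.2 *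
      (((p.1 : ℝ) * gk (1 / (M ^ 2 * s)) (1 / (M ^ 2 * t)) p : ℝ) : ℂ) := by
  have hM0 : (0 : ℝ) < M := by exact_mod_cast Nat.pos_of_ne_zero (NeZero.ne M)
  have hs' : 0 < 1 / ((M : ℝ) ^ 2 * s) := by positivity
  have ht' : 0 < 1 / ((M : ℝ) ^ 2 * t) := by positivity
  obtain ⟨B, hB⟩ := bdd_two f
  obtain ⟨B', hB'⟩ := bdd_two (dft1 M f)
  obtain ⟨B'', hB''⟩ := bdd_two (dft2 M f)
  have hS1 := summable_fst hs ht (fun p => f p.1 p.2) B (fun p => hB _ _)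
  have hS2 := summable_fst hs' ht' (fun p => dft2 M f p.1 p.2) B'' (fun p => hB'' _ _)
  have hS3 := summable_fst hs ht' (fun p => dft1 M f p.1 p.2) B' (fun p => hB' _ _)
  have step1 : ∀ x : ℤ, ∑' y : ℤ, f x y * (((x : ℝ) * gk s t (x, y) : ℝ) : ℂ) =
      (1 / (M * √t : ℝ) : ℂ) * ∑' l : ℤ, dft1 M f x l *
        (((x : ℝ) * gk s (1 / (M ^ 2 * t)) (x, l) : ℝ) : ℂ) := by
    intro x
    have h1 := (pfTw M (f x) t ht).1
    have h2 : ∑' y : ℤ, f x y * (((x : ℝ) * gk s t (x, y) : ℝ) : ℂ) =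
        (∑' y : ℤ, f x y * (Real.exp (-π * (y : ℝ) ^ 2 * t) : ℂ)) *
          (((x : ℝ) * Real.exp (-π * (x : ℝ) ^ 2 * s) : ℝ) : ℂ) := by
      rw [← tsum_mul_right]
      refine tsum_congr fun y => ?_
      unfold gk
      push_cast
      ring
    rw [h2, h1, mul_assoc, ← tsum_mul_right]
    congr 1
    refine tsum_congr fun l => ?_
    have e1 : -π * (l : ℝ) ^ 2 / (M ^ 2 * t) = -π * (l : ℝ) ^ 2 * (1 / (M ^ 2 * t)) := by ring
    rw [e1, dft1]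
    unfold gk
    rw [Complex.ofReal_mul, Complex.ofReal_mul, Complex.ofReal_mul]
    ring
  have step2 : ∀ l : ℤ, ∑' x : ℤ, dft1 M f x l *
        (((x : ℝ) * gk s (1 / (M ^ 2 * t)) (x, l) : ℝ) : ℂ) =
      (-Complex.I / (M ^ 2 * (s * √s) : ℝ) : ℂ) * ∑' k : ℤ, dft2 M f k l *
        (((k : ℝ) * gk (1 / (M ^ 2 * s)) (1 / (M ^ 2 * t)) (k, l) : ℝ) : ℂ) := by
    intro l
    have h1 := (pfTw M (fun x => dft1 M f x l) s hs).2
    have h2 : ∑' x : ℤ, dft1 M f x l *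
        (((x : ℝ) * gk s (1 / (M ^ 2 * t)) (x, l) : ℝ) : ℂ) =
        (Real.exp (-π * (l : ℝ) ^ 2 * (1 / (M ^ 2 * t))) : ℂ) *
        (∑' x : ℤ, dft1 M f x l * (((x : ℝ) * Real.exp (-π * (x : ℝ) ^ 2 * s) : ℝ) : ℂ)) := by
      rw [← tsum_mul_left]
      refine tsum_congr fun x => ?_
      unfold gk
      rw [Complex.ofReal_mul, Complex.ofReal_mul, Complex.ofReal_mul]
      ring
    rw [h2, h1, mul_left_comm, ← tsum_mul_left]
    congr 1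
    refine tsum_congr fun k => ?_
    have e1 : -π * (k : ℝ) ^ 2 / (M ^ 2 * s) = -π * (k : ℝ) ^ 2 * (1 / (M ^ 2 * s)) := by ring
    rw [dft2, e1]
    unfold gk
    rw [Complex.ofReal_mul, Complex.ofReal_mul, Complex.ofReal_mul]
    ring
  have hconst : (1 / (M * √t : ℝ) : ℂ) * (-Complex.I / (M ^ 2 * (s * √s) : ℝ) : ℂ) =
      (-Complex.I / (M ^ 3 * (s * √s * √t) : ℝ) : ℂ) := by
    have e1 : ((M ^ 3 * (s * √s * √t) : ℝ) : ℂ) =
        ((M * √t : ℝ) : ℂ) * ((M ^ 2 * (s * √s) : ℝ) : ℂ) := by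
      rw [← Complex.ofReal_mul]
      congr 1
      ring
    rw [e1, div_mul_div_comm, one_mul]
  rw [hS1.tsum_prod, tsum_congr step1, tsum_mul_left,
    ← hS3.tsum_comm (f := fun x l : ℤ => (dft1 M f x l *
        (((x : ℝ) * gk s (1 / (M ^ 2 * t)) (x, l) : ℝ) : ℂ))), tsum_congr step2, tsum_mul_left,
    ← mul_assoc, hconst, hS2.tsum_prod]
  congr 1
  exact hS2.tsum_comm (f := fun k l : ℤ => dft2 M f k l *
    (((k : ℝ) * gk (1 / (M ^ 2 * s)) (1 / (M ^ 2 * t)) (k, l) : ℝ) : ℂ))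

lemma dft2_swap (M : ℕ) [NeZero M] (f : ZMod M → ZMod M → ℂ) (k l : ZMod M) :
    dft2 M (fun a b => f b a) l k = dft2 M f k l := by
  unfold dft2 dft1
  simp_rw [Finset.sum_mul]
  rw [Finset.sum_comm]
  refine Finset.sum_congr rfl fun a _ => Finset.sum_congr rfl fun b _ => ?_
  ring

theorem poisson_snd (M : ℕ) [NeZero M] (f : ZMod M → ZMod M → ℂ) {s t : ℝ} (hs : 0 < s)
    (ht : 0 < t) :
    ∑' p : ℤ × ℤ, f p.1 p.2 * (((p.2 : ℝ) * gk s t p : ℝ) : ℂ) =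
    (-Complex.I / (M ^ 3 * (t * √t * √s) : ℝ) : ℂ) * ∑' p : ℤ × ℤ, dft2 M f p.1 p.2 *
      (((p.2 : ℝ) * gk (1 / (M ^ 2 * s)) (1 / (M ^ 2 * t)) p : ℝ) : ℂ) := by
  have h := poisson_fst M (fun a b => f b a) ht hs
  have e1 : ∀ (g : ℤ × ℤ → ℂ), ∑' p : ℤ × ℤ, g p = ∑' p : ℤ × ℤ, g (p.2, p.1) := by
    intro g
    exact ((Equiv.prodComm ℤ ℤ).tsum_eq g).symm
  rw [e1, e1 (fun p => dft2 M f p.1 p.2 *
      (((p.2 : ℝ) * gk (1 / (M ^ 2 * s)) (1 / (M ^ 2 * t)) p : ℝ) : ℂ))]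
  have e2 : ∀ (s t : ℝ) (p : ℤ × ℤ), gk s t (p.2, p.1) = gk t s p := by
    intro s t p
    unfold gk
    rw [mul_comm]
  simp only [e2]
  rw [h]
  congr 1
  refine tsum_congr fun p => ?_
  rw [dft2_swap]

end Gs
end P004G
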